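import Vale.Agent.P273.H598.Node1

/-!
# P273, row ASY1 (helper931): the holomorphic part of the neck potential and its derivative

`P0 (X) - P0 (Y)` for the two components, with `X Y = ε`: bounds of the value and of the
derivative, uniform near a merged configuration.
-/

noncomputable section

namespace Vale.Agent.P273.H931

open Set Filter Metric H681 H598
open scoped Topology

/-! ### Cauchy estimates in several variables -/

section abs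

variable {W F : Type*} [NormedAddCommGroup W] [NormedSpace ℂ W]
  [NormedAddCommGroup F] [NormedSpace ℂ F]

/-- Cauchy estimate in one direction -/
theorem cauchy1 {P : W → F} {p v : W} {R M : ℝ} (hR : 0 < R)
    (hd : ∀ s : ℂ, ‖s • v‖ ≤ R → DifferentiableAt ℂ P (p + s • v))
    (hM : ∀ s : ℂ, ‖s • v‖ ≤ R → ‖P (p + s • v)‖ ≤ M) :
    ‖fderiv ℂ P p v‖ ≤ M / R * ‖v‖ := by
  by_cases hv : v = 0
  · subst hv
    simp
  have hv' : 0 < ‖v‖ := norm_pos_iff.2 hv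
  have hr : 0 < R / ‖v‖ := div_pos hR hv'
  have hin : ∀ s : ℂ, ‖s‖ ≤ R / ‖v‖ → ‖s • v‖ ≤ R := by
    intro s hs
    rw [norm_smul]
    exact (le_div_iff₀ hv').1 hs
  have hline : ∀ s : ℂ, HasDerivAt (fun s : ℂ => p + s • v) v s := by
    intro s
    have h1 := ((hasDerivAt_id s).smul_const v).const_add p
    rw [one_smul] at h1
    exact h1
  have hdiff : DifferentiableOn ℂ (fun s : ℂ => P (p + s • v)) (closedBall 0 (R / ‖v‖)) := by
    intro s hs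
    have h1 := hd s (hin s (mem_closedBall_zero_iff.1 hs))
    exact (DifferentiableAt.comp (f := fun s : ℂ => p + s • v) s h1
      (hline s).differentiableAt).differentiableWithinAt
  have hcl : DiffContOnCl ℂ (fun s : ℂ => P (p + s • v)) (ball 0 (R / ‖v‖)) :=
    (hdiff.mono closure_ball_subset_closedBall).diffContOnCl
  have h2 := Complex.norm_deriv_le_of_forall_mem_sphere_norm_le hr hcl (fun s hs =>
    hM s (hin s (mem_sphere_zero_iff_norm.1 hs).le))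
  have h3 : deriv (fun s : ℂ => P (p + s • v)) 0 = fderiv ℂ P p v := by
    have h4 := hd 0 (by rw [zero_smul, norm_zero]; exact hR.le)
    rw [zero_smul, add_zero] at h4
    have h5 : HasFDerivAt P (fderiv ℂ P p) ((fun s : ℂ => p + s • v) 0) := by
      show HasFDerivAt P (fderiv ℂ P p) (p + (0 : ℂ) • v)
      rw [zero_smul, add_zero]
      exact h4.hasFDerivAt
    exact (h5.comp_hasDerivAt (0 : ℂ) (hline 0)).deriv
  rw [h3] at h2
  have e : M / (R / ‖v‖) = M / R * ‖v‖ := by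
    field_simp
  rw [e] at h2
  exact h2

end abs

section zero

variable {L : Type*} [NormedAddCommGroup L] [NormedSpace ℂ L] [FiniteDimensional ℂ L]

/-- a function of `(X, ε, q)` that vanishes for `X = 0` -/
theorem bd_of_zero {P : ℂ × ℂ × L → ℂ} {O : Set (ℂ × ℂ × L)} (hO : IsOpen O)
    (hP : DifferentiableOn ℂ P O) {q₀ : L} (h0 : ((0 : ℂ), (0 : ℂ), q₀) ∈ O)
    (hz : ∀ ε q, ((0 : ℂ), ε, q) ∈ O → P (0, ε, q) = 0) :
    ∃ R > 0, ∃ C : ℝ, 0 ≤ C ∧ (∀ (X ε : ℂ) (q : L), ‖X‖ ≤ R → ‖ε‖ ≤ R → ‖q - q₀‖ ≤ R →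
      (X, ε, q) ∈ O ∧ ‖P (X, ε, q)‖ ≤ C * ‖X‖ ∧
      ∀ x e δ, ‖fderiv ℂ P (X, ε, q) (x, e, δ)‖ ≤ C * (‖x‖ + ‖X‖ * (‖e‖ + ‖δ‖))) := by
  obtain ⟨R₀, hR₀, hsub⟩ := Metric.isOpen_iff.1 hO _ h0
  set R : ℝ := R₀ / 5 with hRdef
  have hR : 0 < R := by positivity
  have : ProperSpace L := FiniteDimensional.proper ℂ L
  have hcb : closedBall ((0 : ℂ), (0 : ℂ), q₀) (4 * R) ⊆ O :=
    (closedBall_subset_ball (by rw [hRdef]; linarith)).trans hsub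
  obtain ⟨M, hM⟩ := (isCompact_closedBall ((0 : ℂ), (0 : ℂ), q₀) (4 * R)).exists_bound_of_continuousOn
    (hP.continuousOn.mono hcb)
  have hM0 : 0 ≤ M := (norm_nonneg _).trans (hM _ (mem_closedBall_self (by positivity)))
  have hmem : ∀ p : ℂ × ℂ × L, ‖p - ((0 : ℂ), (0 : ℂ), q₀)‖ ≤ 4 * R → p ∈ O ∧ ‖P p‖ ≤ M := by
    intro p hp
    have h1 : p ∈ closedBall ((0 : ℂ), (0 : ℂ), q₀) (4 * R) := by
      rw [mem_closedBall, dist_eq_norm]
      exact hp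
    exact ⟨hcb h1, hM p h1⟩
  have hda : ∀ p : ℂ × ℂ × L, p ∈ O → DifferentiableAt ℂ P p := fun p hp =>
    hP.differentiableAt (hO.mem_nhds hp)
  have hn : ∀ (X ε : ℂ) (q : L) (r : ℝ), ‖X‖ ≤ r → ‖ε‖ ≤ r → ‖q - q₀‖ ≤ r →
      ‖((X, ε, q) : ℂ × ℂ × L) - (0, 0, q₀)‖ ≤ r := by
    intro X ε q r h1 h2 h3
    rw [Prod.mk_sub_mk, Prod.mk_sub_mk, sub_zero, sub_zero, Prod.norm_def, Prod.norm_def]
    exact max_le h1 (max_le h2 h3)
  -- the derivative on the ball of radius `3 R`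
  have hD : ∀ p : ℂ × ℂ × L, ‖p - ((0 : ℂ), (0 : ℂ), q₀)‖ ≤ 3 * R → ∀ v,
      ‖fderiv ℂ P p v‖ ≤ M / R * ‖v‖ := by
    intro p hp v
    have hin : ∀ s : ℂ, ‖s • v‖ ≤ R → ‖p + s • v - ((0 : ℂ), (0 : ℂ), q₀)‖ ≤ 4 * R := by
      intro s hs
      have e : p + s • v - ((0 : ℂ), (0 : ℂ), q₀) = (p - ((0 : ℂ), (0 : ℂ), q₀)) + s • v := by
        abel
      rw [e]
      have := norm_add_le (p - ((0 : ℂ), (0 : ℂ), q₀)) (s • v)
      linarith
    exact cauchy1 hR (fun s hs => hda _ (hmem _ (hin s hs)).1) (fun s hs => (hmem _ (hin s hs)).2)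
  -- the value on the ball of radius `3 R`
  have hV : ∀ (X ε : ℂ) (q : L), ‖X‖ ≤ 3 * R → ‖ε‖ ≤ 3 * R → ‖q - q₀‖ ≤ 3 * R →
      ‖P (X, ε, q)‖ ≤ M / R * ‖X‖ := by
    intro X ε q h1 h2 h3
    have hz0 : P (0, ε, q) = 0 := hz ε q (hmem _ ((hn 0 ε q (3 * R) (by
      rw [norm_zero]; positivity) h2 h3).trans (by linarith))).1
    have hseg : ∀ Z ∈ closedBall (0 : ℂ) (3 * R), HasDerivWithinAt (fun Z : ℂ => P (Z, ε, q))
        (fderiv ℂ P (Z, ε, q) (1, 0, 0)) (closedBall (0 : ℂ) (3 * R)) Z := by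
      intro Z hZ
      rw [mem_closedBall_zero_iff] at hZ
      have h4 := hda _ (hmem _ ((hn Z ε q (3 * R) hZ h2 h3).trans (by linarith))).1
      have h5 : HasDerivAt (fun Z : ℂ => ((Z, ε, q) : ℂ × ℂ × L)) (1, 0, 0) Z :=
        (hasDerivAt_id Z).prodMk ((hasDerivAt_const Z ε).prodMk (hasDerivAt_const Z q))
      exact (h4.hasFDerivAt.comp_hasDerivAt Z h5).hasDerivWithinAt
    have hb : ∀ Z ∈ closedBall (0 : ℂ) (3 * R), ‖fderiv ℂ P (Z, ε, q) (1, 0, 0)‖ ≤ M / R := by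
      intro Z hZ
      rw [mem_closedBall_zero_iff] at hZ
      have h4 := hD (Z, ε, q) (hn Z ε q (3 * R) hZ h2 h3) (1, 0, 0)
      have e : ‖((1 : ℂ), (0 : ℂ), (0 : L))‖ = 1 := by
        rw [Prod.norm_def, Prod.norm_def]
        simp
      rw [e, mul_one] at h4
      exact h4
    have h6 := (convex_closedBall (0 : ℂ) (3 * R)).norm_image_sub_le_of_norm_hasDerivWithin_le
      hseg hb (mem_closedBall_self (by positivity)) (mem_closedBall_zero_iff.2 h1)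
    rw [hz0, sub_zero, sub_zero] at h6
    exact h6
  refine ⟨R, hR, M / R + M / R / R, by positivity, fun X ε q hX hε hq => ⟨?_, ?_, ?_⟩⟩
  · exact (hmem _ ((hn X ε q R hX hε hq).trans (by linarith))).1
  · have h1 := hV X ε q (by linarith) (by linarith) (by linarith)
    have h2 : 0 ≤ M / R / R * ‖X‖ := by positivity
    calc _ ≤ _ := h1
      _ ≤ _ := by rw [add_mul]; linarith
  · intro x e δ
    have hsplit : ((x, e, δ) : ℂ × ℂ × L) = (x, 0, 0) + (0, e, δ) := by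
      rw [Prod.mk_add_mk, Prod.mk_add_mk]
      simp
    have h1 := hD (X, ε, q) ((hn X ε q R hX hε hq).trans (by linarith)) (x, 0, 0)
    have e1 : ‖((x, 0, 0) : ℂ × ℂ × L)‖ = ‖x‖ := by
      rw [Prod.norm_def, Prod.norm_def]
      simp
    rw [e1] at h1
    have h2 : ‖fderiv ℂ P (X, ε, q) (0, e, δ)‖ ≤ M / R * ‖X‖ / R * ‖((0, e, δ) : ℂ × ℂ × L)‖ := by
      have hin : ∀ s : ℂ, ‖s • ((0, e, δ) : ℂ × ℂ × L)‖ ≤ R →
          ‖ε + s * e‖ ≤ 3 * R ∧ ‖q + s • δ - q₀‖ ≤ 3 * R := by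
        intro s hs
        rw [Prod.smul_mk, Prod.smul_mk, smul_zero, Prod.norm_def, Prod.norm_def] at hs
        have a1 : ‖s • e‖ ≤ R := le_trans (le_trans (le_max_left _ _) (le_max_right _ _)) hs
        have a2 : ‖s • δ‖ ≤ R := le_trans (le_trans (le_max_right _ _) (le_max_right _ _)) hs
        rw [smul_eq_mul] at a1
        constructor
        · have := norm_add_le ε (s * e)
          linarith
        · have e2 : q + s • δ - q₀ = (q - q₀) + s • δ := by abel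
          rw [e2]
          have := norm_add_le (q - q₀) (s • δ)
          linarith
      have heq : ∀ s : ℂ, ((X, ε, q) : ℂ × ℂ × L) + s • ((0, e, δ) : ℂ × ℂ × L) =
          (X, ε + s * e, q + s • δ) := by
        intro s
        rw [Prod.smul_mk, Prod.smul_mk, Prod.mk_add_mk, Prod.mk_add_mk, smul_zero, add_zero,
          smul_eq_mul]
      refine cauchy1 hR (fun s hs => ?_) (fun s hs => ?_)
      · rw [heq]
        exact hda _ (hmem _ ((hn X _ _ (3 * R) (by linarith) (hin s hs).1 (hin s hs).2).trans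
          (by linarith))).1
      · rw [heq]
        exact hV X _ _ (by linarith) (hin s hs).1 (hin s hs).2
    have e2 : ‖((0, e, δ) : ℂ × ℂ × L)‖ ≤ ‖e‖ + ‖δ‖ := by
      rw [Prod.norm_def, Prod.norm_def]
      refine max_le ?_ (max_le ?_ ?_)
      · simp only [norm_zero]
        positivity
      · have := norm_nonneg δ
        show ‖e‖ ≤ _
        linarith
      · have := norm_nonneg e
        show ‖δ‖ ≤ _
        linarith
    have h3 : M / R * ‖X‖ / R * ‖((0, e, δ) : ℂ × ℂ × L)‖ ≤ M / R * ‖X‖ / R * (‖e‖ + ‖δ‖) :=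
      mul_le_mul_of_nonneg_left e2 (by positivity)
    have h4 : fderiv ℂ P (X, ε, q) (x, e, δ) = fderiv ℂ P (X, ε, q) (x, 0, 0) +
        fderiv ℂ P (X, ε, q) (0, e, δ) := by
      rw [hsplit, map_add]
    rw [h4]
    have h5 := norm_add_le (fderiv ℂ P (X, ε, q) (x, 0, 0)) (fderiv ℂ P (X, ε, q) (0, e, δ))
    have h6 : M / R * ‖X‖ / R * (‖e‖ + ‖δ‖) = M / R / R * (‖X‖ * (‖e‖ + ‖δ‖)) := by ring
    have h7 : 0 ≤ M / R / R * ‖x‖ := by positivity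
    have h8 : 0 ≤ M / R * (‖X‖ * (‖e‖ + ‖δ‖)) := by positivity
    calc _ ≤ _ := h5
      _ ≤ M / R * ‖x‖ + M / R / R * (‖X‖ * (‖e‖ + ‖δ‖)) := by linarith
      _ ≤ _ := by
        have e3 : (M / R + M / R / R) * (‖x‖ + ‖X‖ * (‖e‖ + ‖δ‖)) =
            M / R * ‖x‖ + M / R / R * (‖X‖ * (‖e‖ + ‖δ‖)) + (M / R / R * ‖x‖ +
              M / R * (‖X‖ * (‖e‖ + ‖δ‖))) := by ring
        rw [e3]
        linarith

end zero

/-! ### the two components -/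

/-- the holomorphic part of the primitive in the neck -/
def PF (i : Fin 5) (m : ℕ) (ρ : ℝ) (p : ℂ × ℂ × C6) : ℂ :=
  P0 (fun z => HH i m (p.2.2, z)) (5 * ρ) p.1 p.2.1

/-- the two components of `P0 (X) - P0 (Y)` -/
def FF (i : Fin 5) (ρ : ℝ) (q : C6) (ε X Y : ℂ) : ℂ × ℂ :=
  (PF i 0 ρ (X, ε, q) - PF i 0 ρ (Y, ε, q), PF i 1 ρ (X, ε, q) - PF i 1 ρ (Y, ε, q))

variable {i : Fin 5} {V : Set C6} {ρ : ℝ}

theorem pf_bd (h : NB i V ρ) {q₀ : C6} (hq₀ : q₀ ∈ V) (m : ℕ) :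
    ∃ R > 0, ∃ C : ℝ, 0 ≤ C ∧ ∀ (X ε : ℂ) (q : C6), ‖X‖ ≤ R → ‖ε‖ ≤ R → ‖q - q₀‖ ≤ R →
      q ∈ V ∧ DifferentiableAt ℂ (PF i m ρ) (X, ε, q) ∧ ‖PF i m ρ (X, ε, q)‖ ≤ C * ‖X‖ ∧
      ∀ x e δ, ‖fderiv ℂ (PF i m ρ) (X, ε, q) (x, e, δ)‖ ≤
        C * (‖x‖ + ‖X‖ * (‖e‖ + ‖δ‖)) := by
  have hρ := h.pos
  have hHd : DifferentiableOn ℂ (HH i m) (V ×ˢ ball (0 : ℂ) (6 * ρ)) :=
    (differentiableOn_HH m).mono h.gd
  have h56 : 5 * ρ < 6 * ρ := by linarith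
  have h1 : DifferentiableOn ℂ (PF i m ρ) (ball 0 (5 * ρ) ×ˢ ball 0 ((5 * ρ) ^ 2) ×ˢ V) :=
    differentiableOn_P0 h.op h56 hHd
  have hO : IsOpen (ball (0 : ℂ) (5 * ρ) ×ˢ ball (0 : ℂ) ((5 * ρ) ^ 2) ×ˢ V) :=
    isOpen_ball.prod (isOpen_ball.prod h.op)
  obtain ⟨R, hR, C, hC, hb⟩ := bd_of_zero hO h1 (q₀ := q₀)
    ⟨mem_ball_self (by positivity), mem_ball_self (by positivity), hq₀⟩
    (fun ε q _ => P0_zero _ _ _)
  refine ⟨R, hR, C, hC, fun X ε q hX hε hq => ?_⟩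
  obtain ⟨a, b, c⟩ := hb X ε q hX hε hq
  exact ⟨a.2.2, h1.differentiableAt (hO.mem_nhds a), b, c⟩

/-- one component along a family -/
theorem pf_comp {m : ℕ} {R C : ℝ} (hC : 0 ≤ C) (hR1 : R ≤ 1) {q₀ : C6}
    (hb : ∀ (X ε : ℂ) (q : C6), ‖X‖ ≤ R → ‖ε‖ ≤ R → ‖q - q₀‖ ≤ R →
      DifferentiableAt ℂ (PF i m ρ) (X, ε, q) ∧ ‖PF i m ρ (X, ε, q)‖ ≤ C * ‖X‖ ∧
      ∀ x e δ, ‖fderiv ℂ (PF i m ρ) (X, ε, q) (x, e, δ)‖ ≤ C * (‖x‖ + ‖X‖ * (‖e‖ + ‖δ‖)))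
    {E : Type*} [NormedAddCommGroup E] [NormedSpace ℝ E] {q : E → C6} {ε X Y : E → ℂ} {t : E}
    {q' : E →L[ℝ] C6} {ε' X' Y' : E →L[ℝ] ℂ} (hq : HasFDerivAt q q' t)
    (hε : HasFDerivAt ε ε' t) (hX : HasFDerivAt X X' t) (hY : HasFDerivAt Y Y' t)
    (hqt : ‖q t - q₀‖ ≤ R) (hXt : ‖X t‖ ≤ R) (hYt : ‖Y t‖ ≤ R) (hεt : ε t = X t * Y t) :
    ∃ F' : E →L[ℝ] ℂ,
      HasFDerivAt (fun s => PF i m ρ (X s, ε s, q s) - PF i m ρ (Y s, ε s, q s)) F' t ∧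
      ‖PF i m ρ (X t, ε t, q t) - PF i m ρ (Y t, ε t, q t)‖ ≤ 2 * C ∧
      ∀ w lX lY, X' w = X t * lX → Y' w = Y t * lY → ε' w = X t * Y t * (lX + lY) →
        ‖F' w‖ ≤ 4 * C * (‖q' w‖ + ‖X t‖ * ‖lX‖ + ‖Y t‖ * ‖lY‖) := by
  have hR0 : 0 ≤ R := (norm_nonneg _).trans hXt
  have hX1 : ‖X t‖ ≤ 1 := hXt.trans hR1
  have hY1 : ‖Y t‖ ≤ 1 := hYt.trans hR1
  have nX := norm_nonneg (X t)
  have nY := norm_nonneg (Y t)
  have hε1 : ‖ε t‖ ≤ R := by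
    rw [hεt, norm_mul]
    nlinarith
  obtain ⟨dX, vX, bX⟩ := hb (X t) (ε t) (q t) hXt hε1 hqt
  obtain ⟨dY, vY, bY⟩ := hb (Y t) (ε t) (q t) hYt hε1 hqt
  have kX : HasFDerivAt (fun s => PF i m ρ (X s, ε s, q s))
      (((fderiv ℂ (PF i m ρ) (X t, ε t, q t)).restrictScalars ℝ).comp
        (X'.prod (ε'.prod q'))) t :=
    HasFDerivAt.comp (f := fun s => (X s, ε s, q s)) t (dX.hasFDerivAt.restrictScalars ℝ)
      (hX.prodMk (hε.prodMk hq))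
  have kY : HasFDerivAt (fun s => PF i m ρ (Y s, ε s, q s))
      (((fderiv ℂ (PF i m ρ) (Y t, ε t, q t)).restrictScalars ℝ).comp
        (Y'.prod (ε'.prod q'))) t :=
    HasFDerivAt.comp (f := fun s => (Y s, ε s, q s)) t (dY.hasFDerivAt.restrictScalars ℝ)
      (hY.prodMk (hε.prodMk hq))
  refine ⟨_, kX.sub kY, ?_, ?_⟩
  · have h1 := norm_sub_le (PF i m ρ (X t, ε t, q t)) (PF i m ρ (Y t, ε t, q t))
    have h2 : C * ‖X t‖ ≤ C * 1 := mul_le_mul_of_nonneg_left hX1 hC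
    have h3 : C * ‖Y t‖ ≤ C * 1 := mul_le_mul_of_nonneg_left hY1 hC
    linarith
  · intro w lX lY h1 h2 h3
    have e1 : (((fderiv ℂ (PF i m ρ) (X t, ε t, q t)).restrictScalars ℝ).comp
        (X'.prod (ε'.prod q')) - ((fderiv ℂ (PF i m ρ) (Y t, ε t, q t)).restrictScalars ℝ).comp
        (Y'.prod (ε'.prod q'))) w =
        fderiv ℂ (PF i m ρ) (X t, ε t, q t) (X t * lX, X t * Y t * (lX + lY), q' w) -
        fderiv ℂ (PF i m ρ) (Y t, ε t, q t) (Y t * lY, X t * Y t * (lX + lY), q' w) := by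
      rw [← h1, ← h2, ← h3]
      rfl
    rw [e1]
    have a1 := bX (X t * lX) (X t * Y t * (lX + lY)) (q' w)
    have a2 := bY (Y t * lY) (X t * Y t * (lX + lY)) (q' w)
    have a3 := norm_sub_le
      (fderiv ℂ (PF i m ρ) (X t, ε t, q t) (X t * lX, X t * Y t * (lX + lY), q' w))
      (fderiv ℂ (PF i m ρ) (Y t, ε t, q t) (Y t * lY, X t * Y t * (lX + lY), q' w))
    have nlX := norm_nonneg lX
    have nlY := norm_nonneg lY
    have nd := norm_nonneg (q' w)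
    have hl := norm_add_le lX lY
    rw [norm_mul, norm_mul, norm_mul] at a1 a2
    set x := ‖X t‖
    set y := ‖Y t‖
    set a := ‖lX‖
    set b := ‖lY‖
    set s := ‖lX + lY‖
    set dd := ‖q' w‖
    have ns : 0 ≤ s := norm_nonneg _
    have p1 : 0 ≤ x * a := mul_nonneg nX nlX
    have p2 : 0 ≤ y * b := mul_nonneg nY nlY
    have q1 : x * y * s ≤ x * a + y * b := by
      have c1 : x * y * s ≤ x * y * (a + b) := mul_le_mul_of_nonneg_left hl (mul_nonneg nX nY)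
      have c2 : x * y * a ≤ x * 1 * a := by gcongr
      have c3 : x * y * b ≤ 1 * y * b := by gcongr
      nlinarith
    have q2 : x * (x * y * s + dd) ≤ x * a + y * b + dd := by
      have c1 : x * (x * y * s + dd) ≤ 1 * (x * y * s + dd) :=
        mul_le_mul_of_nonneg_right hX1 (by positivity)
      linarith
    have q3 : y * (x * y * s + dd) ≤ x * a + y * b + dd := by
      have c1 : y * (x * y * s + dd) ≤ 1 * (x * y * s + dd) :=
        mul_le_mul_of_nonneg_right hY1 (by positivity)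
      linarith
    have q4 : x * a + x * (x * y * s + dd) + (y * b + y * (x * y * s + dd)) ≤
        4 * (dd + x * a + y * b) := by linarith
    calc _ ≤ _ := a3
      _ ≤ C * (x * a + x * (x * y * s + dd)) + C * (y * b + y * (x * y * s + dd)) := by linarith
      _ = C * (x * a + x * (x * y * s + dd) + (y * b + y * (x * y * s + dd))) := by ring
      _ ≤ C * (4 * (dd + x * a + y * b)) := mul_le_mul_of_nonneg_left q4 hC
      _ = _ := by ring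

/-- **Bounds of the holomorphic part** on the polydisc of radius `R` at the merged configuration
`q₀`. -/
structure FBd (i : Fin 5) (V : Set C6) (ρ : ℝ) (q₀ : C6) (R C : ℝ) : Prop where
  R0 : 0 < R
  R1 : R ≤ 1
  C0 : 0 ≤ C
  mem : ∀ q, ‖q - q₀‖ ≤ R → q ∈ V
  bd : ∀ m : ℕ, m ≤ 1 → ∀ (X ε : ℂ) (q : C6), ‖X‖ ≤ R → ‖ε‖ ≤ R → ‖q - q₀‖ ≤ R →
    DifferentiableAt ℂ (PF i m ρ) (X, ε, q) ∧ ‖PF i m ρ (X, ε, q)‖ ≤ C * ‖X‖ ∧
    ∀ x e δ, ‖fderiv ℂ (PF i m ρ) (X, ε, q) (x, e, δ)‖ ≤ C * (‖x‖ + ‖X‖ * (‖e‖ + ‖δ‖))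

theorem exists_FBd (h : NB i V ρ) {q₀ : C6} (hq₀ : q₀ ∈ V) : ∃ R C, FBd i V ρ q₀ R C := by
  obtain ⟨R₀, hR₀, C₀, hC₀, b₀⟩ := pf_bd h hq₀ 0
  obtain ⟨R₁, hR₁, C₁, hC₁, b₁⟩ := pf_bd h hq₀ 1
  have hR : 0 < min (min R₀ R₁) 1 := lt_min (lt_min hR₀ hR₁) one_pos
  have l0 : min (min R₀ R₁) 1 ≤ R₀ := (min_le_left _ _).trans (min_le_left _ _)
  have l1 : min (min R₀ R₁) 1 ≤ R₁ := (min_le_left _ _).trans (min_le_right _ _)
  refine ⟨min (min R₀ R₁) 1, C₀ + C₁, hR, min_le_right _ _, add_nonneg hC₀ hC₁, ?_, ?_⟩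
  · intro q hq
    exact (b₀ 0 0 q (by rw [norm_zero]; exact hR₀.le) (by rw [norm_zero]; exact hR₀.le)
      (hq.trans l0)).1
  · intro m hm X ε q hX hε hq
    have hcases : m = 0 ∨ m = 1 := by omega
    rcases hcases with rfl | rfl
    · obtain ⟨-, a, b, c⟩ := b₀ X ε q (hX.trans l0) (hε.trans l0) (hq.trans l0)
      refine ⟨a, b.trans ?_, fun x e δ => (c x e δ).trans ?_⟩
      · exact mul_le_mul_of_nonneg_right (by linarith) (norm_nonneg _)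
      · exact mul_le_mul_of_nonneg_right (by linarith) (by positivity)
    · obtain ⟨-, a, b, c⟩ := b₁ X ε q (hX.trans l1) (hε.trans l1) (hq.trans l1)
      refine ⟨a, b.trans ?_, fun x e δ => (c x e δ).trans ?_⟩
      · exact mul_le_mul_of_nonneg_right (by linarith) (norm_nonneg _)
      · exact mul_le_mul_of_nonneg_right (by linarith) (by positivity)

namespace FBd

variable {q₀ : C6} {R C : ℝ}

/-- value of the F half -/
theorem val (h : FBd i V ρ q₀ R C) {q : C6} {ε X Y : ℂ} (hq : ‖q - q₀‖ ≤ R) (hX : ‖X‖ ≤ R)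
    (hY : ‖Y‖ ≤ R) (hε : ε = X * Y) :
    ‖FF i ρ q ε X Y‖ ≤ C * (‖X‖ + ‖Y‖) ∧ ‖FF i ρ q ε X Y‖ ≤ 2 * C := by
  have hR := h.R0
  have hR1 := h.R1
  have hC := h.C0
  have nX := norm_nonneg X
  have nY := norm_nonneg Y
  have hε1 : ‖ε‖ ≤ R := by
    rw [hε, norm_mul]
    nlinarith
  have a0 := (h.bd 0 (by norm_num) X ε q hX hε1 hq).2.1
  have a1 := (h.bd 1 le_rfl X ε q hX hε1 hq).2.1
  have b0 := (h.bd 0 (by norm_num) Y ε q hY hε1 hq).2.1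
  have b1 := (h.bd 1 le_rfl Y ε q hY hε1 hq).2.1
  have c0 := norm_sub_le (PF i 0 ρ (X, ε, q)) (PF i 0 ρ (Y, ε, q))
  have c1 := norm_sub_le (PF i 1 ρ (X, ε, q)) (PF i 1 ρ (Y, ε, q))
  have key : ‖FF i ρ q ε X Y‖ ≤ C * (‖X‖ + ‖Y‖) := by
    unfold FF
    rw [Prod.norm_def]
    refine max_le ?_ ?_
    · show ‖PF i 0 ρ (X, ε, q) - PF i 0 ρ (Y, ε, q)‖ ≤ _
      linarith
    · show ‖PF i 1 ρ (X, ε, q) - PF i 1 ρ (Y, ε, q)‖ ≤ _
      linarith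
  refine ⟨key, key.trans ?_⟩
  have : C * (‖X‖ + ‖Y‖) ≤ C * (1 + 1) :=
    mul_le_mul_of_nonneg_left (add_le_add (hX.trans hR1) (hY.trans hR1)) hC
  linarith

/-- **F half of the neck potential along a family.** -/
theorem ff (h : FBd i V ρ q₀ R C)
    {E : Type*} [NormedAddCommGroup E] [NormedSpace ℝ E] {q : E → C6} {ε X Y : E → ℂ} {t : E}
    {q' : E →L[ℝ] C6} {ε' X' Y' : E →L[ℝ] ℂ} (hq : HasFDerivAt q q' t)
    (hε : HasFDerivAt ε ε' t) (hX : HasFDerivAt X X' t) (hY : HasFDerivAt Y Y' t)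
    (hqt : ‖q t - q₀‖ ≤ R) (hXt : ‖X t‖ ≤ R) (hYt : ‖Y t‖ ≤ R) (hεt : ε t = X t * Y t) :
    ∃ F' : E →L[ℝ] ℂ × ℂ, HasFDerivAt (fun s => FF i ρ (q s) (ε s) (X s) (Y s)) F' t ∧
      ‖FF i ρ (q t) (ε t) (X t) (Y t)‖ ≤ 4 * C ∧
      ∀ w lX lY, X' w = X t * lX → Y' w = Y t * lY → ε' w = X t * Y t * (lX + lY) →
        ‖F' w‖ ≤ 4 * C * (‖q' w‖ + ‖X t‖ * ‖lX‖ + ‖Y t‖ * ‖lY‖) := by
  obtain ⟨A, hA, -, bA⟩ := pf_comp h.C0 h.R1 (h.bd 0 (by norm_num)) hq hε hX hY hqt hXt hYt hεt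
  obtain ⟨B, hB, -, bB⟩ := pf_comp h.C0 h.R1 (h.bd 1 le_rfl) hq hε hX hY hqt hXt hYt hεt
  refine ⟨A.prod B, hA.prodMk hB, ?_, ?_⟩
  · have h1 := (h.val hqt hXt hYt hεt).2
    have h2 := h.C0
    linarith
  · intro w lX lY h1 h2 h3
    show ‖(A w, B w)‖ ≤ _
    rw [Prod.norm_def]
    exact max_le (bA w lX lY h1 h2 h3) (bB w lX lY h1 h2 h3)

/-- the same, with the derivative as `fderiv` -/
theorem ff_fderiv (h : FBd i V ρ q₀ R C)
    {E : Type*} [NormedAddCommGroup E] [NormedSpace ℝ E] {q : E → C6} {ε X Y : E → ℂ} {t : E}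
    {q' : E →L[ℝ] C6} {ε' X' Y' : E →L[ℝ] ℂ} (hq : HasFDerivAt q q' t)
    (hε : HasFDerivAt ε ε' t) (hX : HasFDerivAt X X' t) (hY : HasFDerivAt Y Y' t)
    (hqt : ‖q t - q₀‖ ≤ R) (hXt : ‖X t‖ ≤ R) (hYt : ‖Y t‖ ≤ R) (hεt : ε t = X t * Y t) :
    DifferentiableAt ℝ (fun s => FF i ρ (q s) (ε s) (X s) (Y s)) t ∧
      ∀ w lX lY, X' w = X t * lX → Y' w = Y t * lY → ε' w = X t * Y t * (lX + lY) →
        ‖fderiv ℝ (fun s => FF i ρ (q s) (ε s) (X s) (Y s)) t w‖ ≤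
          4 * C * (‖q' w‖ + ‖X t‖ * ‖lX‖ + ‖Y t‖ * ‖lY‖) := by
  obtain ⟨F', h1, -, h2⟩ := h.ff hq hε hX hY hqt hXt hYt hεt
  refine ⟨h1.differentiableAt, ?_⟩
  rw [h1.fderiv]
  exact h2

end FBd

end Vale.Agent.P273.H931

end
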